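import Vale.Agent.P310.Main

open Filter Asymptotics

namespace Vale.Agent.Results.P310.LowerBound

open Vale.Agent.P310

/-- Unconditional `n^{Ω(k)}` lower bound for deciding `k`-WL equivalence on deterministic
multitape Turing machines, and the resulting negative answer to the `n^{o(k)}` question. -/
theorem result :
    (∀ k : ℕ, 2 ≤ k → ∀ M : TM, Decides M k →
      ∀ᶠ n : ℕ in atTop, (n : ℝ) ^ ((k : ℝ) / 13) ≤ (worstTime M n : ℝ)) ∧
    ¬ ∃ g : ℕ → ℝ, (g =o[atTop] fun k : ℕ => (k : ℝ)) ∧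
      ∀ k : ℕ, 2 ≤ k → ∃ M : TM, Decides M k ∧
        (fun n : ℕ => (worstTime M n : ℝ)) =O[atTop] fun n : ℕ => (n : ℝ) ^ g k :=
  ⟨fun _ hk M hM => all_k M hk hM, no_little_o⟩

end Vale.Agent.Results.P310.LowerBound
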